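import Vale.Agent.P130.Defs

/-!
# P130: products of independent `L²` functions
-/

open scoped InnerProductSpace ComplexConjugate
open MeasureTheory ProbabilityTheory Filter

namespace Vale.P130

variable {Ω : Type*} {A B : MeasurableSpace Ω} {mΩ : MeasurableSpace Ω} {μ : Measure Ω}

lemma koopman_coe (T : Ω ≃ᵐ Ω) (hT : MeasurePreserving T μ μ) (g : Lp ℂ 2 μ) :
    koopman T hT g =ᵐ[μ] g ∘ T :=
  Lp.coeFn_compMeasurePreserving g hT

lemma koopman_int (T : Ω ≃ᵐ Ω) (hT : MeasurePreserving T μ μ) (g : Lp ℂ 2 μ) :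
    ∫ x, koopman T hT g x ∂μ = ∫ x, g x ∂μ := by
  rw [integral_congr_ae (koopman_coe T hT g)]
  exact hT.integral_comp' (g := fun x => g x)

lemma indepFun_of (hAB : Indep A B μ) {x y : Ω → ℂ} (hx : AEStronglyMeasurable[A] x μ)
    (hy : AEStronglyMeasurable[B] y μ) : IndepFun x y μ := by
  obtain ⟨x', hx', hxx⟩ := hx
  obtain ⟨y', hy', hyy⟩ := hy
  have h1 : IndepFun x' y' μ := by
    rw [IndepFun_iff_Indep]
    exact indep_of_indep_of_le_left (indep_of_indep_of_le_right hAB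
      (measurable_iff_comap_le.1 hy'.measurable)) (measurable_iff_comap_le.1 hx'.measurable)
  exact h1.congr hxx.symm hyy.symm

open Classical in
/-- product of two `L²` functions (as an `L²` function, if it is one) -/
noncomputable def mulL2 (x y : Lp ℂ 2 μ) : Lp ℂ 2 μ :=
  if h : MemLp (fun ω => x ω * y ω) 2 μ then h.toLp _ else 0

lemma memLp_mul (hAB : Indep A B μ) {x y : Lp ℂ 2 μ} (hx : AEStronglyMeasurable[A] x μ)
    (hy : AEStronglyMeasurable[B] y μ) : MemLp (fun ω => x ω * y ω) 2 μ := by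
  have hm : AEStronglyMeasurable (fun ω => x ω * y ω) μ :=
    (Lp.aestronglyMeasurable x).mul (Lp.aestronglyMeasurable y)
  rw [memLp_two_iff_integrable_sq_norm hm]
  have h1 : Integrable (fun ω => ‖x ω‖ ^ 2) μ :=
    (memLp_two_iff_integrable_sq_norm (Lp.aestronglyMeasurable x)).1 (Lp.memLp x)
  have h2 : Integrable (fun ω => ‖y ω‖ ^ 2) μ :=
    (memLp_two_iff_integrable_sq_norm (Lp.aestronglyMeasurable y)).1 (Lp.memLp y)
  have h3 : IndepFun (fun ω => ‖x ω‖ ^ 2) (fun ω => ‖y ω‖ ^ 2) μ :=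
    (indepFun_of hAB hx hy).comp (φ := fun z => ‖z‖ ^ 2) (ψ := fun z => ‖z‖ ^ 2)
      (by fun_prop) (by fun_prop)
  have h4 := h3.integrable_mul h1 h2
  refine h4.congr ?_
  filter_upwards with ω
  simp [mul_pow]

lemma mulL2_coe (hAB : Indep A B μ) {x y : Lp ℂ 2 μ} (hx : AEStronglyMeasurable[A] x μ)
    (hy : AEStronglyMeasurable[B] y μ) : mulL2 x y =ᵐ[μ] fun ω => x ω * y ω := by
  unfold mulL2
  rw [dif_pos (memLp_mul hAB hx hy)]
  exact MemLp.coeFn_toLp _

lemma mulL2_int (hAB : Indep A B μ) {x y : Lp ℂ 2 μ} (hx : AEStronglyMeasurable[A] x μ)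
    (hy : AEStronglyMeasurable[B] y μ) :
    ∫ ω, mulL2 x y ω ∂μ = (∫ ω, x ω ∂μ) * ∫ ω, y ω ∂μ := by
  rw [integral_congr_ae (mulL2_coe hAB hx hy)]
  exact (indepFun_of hAB hx hy).integral_fun_mul_eq_mul_integral
    (Lp.aestronglyMeasurable x) (Lp.aestronglyMeasurable y)

lemma inner_eq (x y : Lp ℂ 2 μ) : ⟪x, y⟫_ℂ = ∫ ω, (starRingEnd ℂ) (x ω) * y ω ∂μ := by
  rw [L2.inner_def]
  apply integral_congr_ae
  filter_upwards with ω
  simp [mul_comm]

lemma mulL2_inner (hAB : Indep A B μ) {x y x' y' : Lp ℂ 2 μ}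
    (hx : AEStronglyMeasurable[A] x μ)
    (hy : AEStronglyMeasurable[B] y μ) (hx' : AEStronglyMeasurable[A] x' μ)
    (hy' : AEStronglyMeasurable[B] y' μ) :
    ⟪mulL2 x y, mulL2 x' y'⟫_ℂ = ⟪x, x'⟫_ℂ * ⟪y, y'⟫_ℂ := by
  rw [inner_eq, inner_eq, inner_eq]
  have h1 : AEStronglyMeasurable[A] (fun ω => (starRingEnd ℂ) (x ω) * x' ω) μ :=
    (Complex.continuous_conj.comp_aestronglyMeasurable hx).mul hx'
  have h2 : AEStronglyMeasurable[B] (fun ω => (starRingEnd ℂ) (y ω) * y' ω) μ :=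
    (Complex.continuous_conj.comp_aestronglyMeasurable hy).mul hy'
  have h3 := (indepFun_of hAB h1 h2).integral_fun_mul_eq_mul_integral
    ((Complex.continuous_conj.comp_aestronglyMeasurable (Lp.aestronglyMeasurable x)).mul
      (Lp.aestronglyMeasurable x'))
    ((Complex.continuous_conj.comp_aestronglyMeasurable (Lp.aestronglyMeasurable y)).mul
      (Lp.aestronglyMeasurable y'))
  rw [← h3]
  apply integral_congr_ae
  filter_upwards [mulL2_coe hAB hx hy, mulL2_coe hAB hx' hy'] with ω e1 e2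
  rw [e1, e2, map_mul]
  ring

lemma koopman_mulL2 (T : Ω ≃ᵐ Ω) (hT : MeasurePreserving T μ μ) (hAB : Indep A B μ)
    {x y : Lp ℂ 2 μ} (hx : AEStronglyMeasurable[A] x μ)
    (hy : AEStronglyMeasurable[B] y μ) (hx' : AEStronglyMeasurable[A] (koopman T hT x) μ)
    (hy' : AEStronglyMeasurable[B] (koopman T hT y) μ) :
    koopman T hT (mulL2 x y) = mulL2 (koopman T hT x) (koopman T hT y) := by
  apply Lp.ext
  have h1 := hT.quasiMeasurePreserving.ae_eq_comp (mulL2_coe hAB hx hy)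
  filter_upwards [koopman_coe T hT (mulL2 x y), koopman_coe T hT x, koopman_coe T hT y,
    mulL2_coe hAB hx' hy', h1] with ω e1 e2 e3 e4 e5
  rw [e1, e4, e2, e3]
  exact e5

lemma koopman_meas (T : Ω ≃ᵐ Ω) (hT : MeasurePreserving T μ μ)
    (hAT : MeasurableSpace.comap T A ≤ A) {x : Lp ℂ 2 μ} (hx : AEStronglyMeasurable[A] x μ) :
    AEStronglyMeasurable[A] (koopman T hT x) μ := by
  obtain ⟨x', hx', hxx⟩ := hx
  refine ⟨x' ∘ T, ?_, ?_⟩
  · have h1 : Measurable[A, A] T := by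
      rw [measurable_iff_comap_le]
      exact hAT
    exact hx'.comp_measurable h1
  · exact (koopman_coe T hT x).trans (hT.quasiMeasurePreserving.ae_eq_comp hxx)

end Vale.P130
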