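import Vale.Agent.P130.Core
import Vale.Agent.P130.Prod

/-!
# P130: no independent invariant sub-σ-algebras under finite absolutely continuous multiplicity
-/

open scoped InnerProductSpace ComplexConjugate
open MeasureTheory ProbabilityTheory Filter

namespace Vale.P130

section
variable {Ω : Type*} {A B : MeasurableSpace Ω} {mΩ : MeasurableSpace Ω} {μ : Measure Ω}
  [IsProbabilityMeasure μ]

/-- the constant function `1` -/
noncomputable def oneL2 (μ : Measure Ω) [IsProbabilityMeasure μ] : Lp ℂ 2 μ :=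
  indicatorConstLp 2 MeasurableSet.univ (measure_ne_top μ _) 1

lemma one_inner (g : Lp ℂ 2 μ) : ⟪oneL2 μ, g⟫_ℂ = ∫ ω, g ω ∂μ := by
  rw [inner_eq]
  apply integral_congr_ae
  have h := indicatorConstLp_coeFn (p := 2) (hs := MeasurableSet.univ)
    (hμs := measure_ne_top μ (Set.univ : Set Ω)) (c := (1 : ℂ))
  filter_upwards [h] with ω e
  unfold oneL2
  rw [e]
  simp

omit [IsProbabilityMeasure μ] in
lemma red (T : Ω ≃ᵐ Ω) (hT : MeasurePreserving T μ μ) (hA : MeasurableSpace.comap T A = A) :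
    Red (koopman T hT) (lpMeas ℂ ℂ A 2 μ) := by
  have hA' : MeasurableSpace.comap T.symm A = A := by
    conv_lhs => rw [← hA]
    rw [MeasurableSpace.comap_comp]
    have : (T : Ω → Ω) ∘ T.symm = id := by
      funext x
      simp
    rw [this, MeasurableSpace.comap_id]
  constructor
  · intro x hx
    rw [mem_lpMeas_iff_aestronglyMeasurable] at hx ⊢
    exact koopman_meas T hT hA.le hx
  · intro x hx
    rw [mem_lpMeas_iff_aestronglyMeasurable] at hx ⊢
    have h1 : (koopman T hT)⁻¹ x = koopman T.symm (hT.symm T) x := by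
      apply (koopman T hT).injective
      have e1 : koopman T hT ((koopman T hT)⁻¹ x) = x := (koopman T hT).apply_symm_apply x
      rw [e1]
      apply Lp.ext
      have h2 := hT.quasiMeasurePreserving.ae_eq_comp (koopman_coe T.symm (hT.symm T) x)
      have h3 := koopman_coe T hT (koopman T.symm (hT.symm T) x)
      refine (h3.trans (h2.trans ?_)).symm
      filter_upwards with ω
      simp
    rw [h1]
    exact koopman_meas T.symm (hT.symm T) hA'.le hx

/-- a centred indicator function of a nontrivial set -/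
lemma exists_centred (hAm : A ≤ mΩ) {s : Set Ω} (hs : MeasurableSet[A] s) (h0 : μ s ≠ 0)
    (h1 : μ s ≠ 1) : ∃ φ : Lp ℂ 2 μ, φ ≠ 0 ∧ φ ∈ lpMeas ℂ ℂ A 2 μ ∧ ⟪oneL2 μ, φ⟫_ℂ = 0 := by
  set p : Lp ℂ 2 μ := indicatorConstLp 2 (hAm s hs) (measure_ne_top μ s) (1 : ℂ) with hp
  have hpc := indicatorConstLp_coeFn (p := 2) (hs := hAm s hs)
    (hμs := measure_ne_top μ s) (c := (1 : ℂ))
  have h1c := indicatorConstLp_coeFn (p := 2) (hs := MeasurableSet.univ)
    (hμs := measure_ne_top μ (Set.univ : Set Ω)) (c := (1 : ℂ))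
  have hone : ⟪oneL2 μ, oneL2 μ⟫_ℂ = 1 := by
    rw [one_inner]
    change ∫ ω, (indicatorConstLp 2 MeasurableSet.univ (measure_ne_top μ (Set.univ : Set Ω))
      (1 : ℂ) : Lp ℂ 2 μ) ω ∂μ = 1
    rw [integral_congr_ae h1c]
    simp
  refine ⟨p - (⟪oneL2 μ, p⟫_ℂ) • oneL2 μ, ?_, ?_, ?_⟩
  · intro hzero
    rw [sub_eq_zero] at hzero
    -- the indicator is almost surely constant
    have h2 : (p : Ω → ℂ) =ᵐ[μ] fun _ => ⟪oneL2 μ, p⟫_ℂ := by
      have h3 : (p : Ω → ℂ) =ᵐ[μ] ((⟪oneL2 μ, p⟫_ℂ) • oneL2 μ : Lp ℂ 2 μ) := by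
        rw [← hzero]
      have h4 := Lp.coeFn_smul (⟪oneL2 μ, p⟫_ℂ) (oneL2 μ)
      filter_upwards [h3, h4, h1c] with ω e1 e2 e3
      rw [e1, e2]
      unfold oneL2
      rw [Pi.smul_apply, e3]
      simp
    have h5 : ∀ᵐ ω ∂μ, s.indicator (fun _ => (1 : ℂ)) ω = ⟪oneL2 μ, p⟫_ℂ := by
      filter_upwards [h2, hpc] with ω e1 e2
      rw [← e1, hp, e2]
    by_cases hc : ⟪oneL2 μ, p⟫_ℂ = 1
    · apply h1
      have h6 : ∀ᵐ ω ∂μ, ω ∈ s := by
        filter_upwards [h5] with ω e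
        by_contra hω
        rw [Set.indicator_of_notMem hω, hc] at e
        exact zero_ne_one e
      exact (prob_compl_eq_zero_iff (hAm s hs)).1 h6
    · apply h0
      have h6 : ∀ᵐ ω ∂μ, ω ∉ s := by
        filter_upwards [h5] with ω e hω
        rw [Set.indicator_of_mem hω] at e
        exact hc e.symm
      exact measure_eq_zero_iff_ae_notMem.2 h6
  · apply Submodule.sub_mem
    · rw [mem_lpMeas_iff_aestronglyMeasurable]
      exact ⟨s.indicator (fun _ => (1 : ℂ)), stronglyMeasurable_const.indicator hs, hpc⟩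
    · apply Submodule.smul_mem
      rw [mem_lpMeas_iff_aestronglyMeasurable]
      exact ⟨fun _ => (1 : ℂ), stronglyMeasurable_const, by
        filter_upwards [h1c] with ω e
        unfold oneL2
        rw [e]
        simp⟩
  · rw [inner_sub_right, inner_smul_right, hone, mul_one, sub_self]

lemma one_mem : oneL2 μ ∈ lpMeas ℂ ℂ A 2 μ := by
  rw [mem_lpMeas_iff_aestronglyMeasurable]
  have h1c := indicatorConstLp_coeFn (p := 2) (hs := MeasurableSet.univ)
    (hμs := measure_ne_top μ (Set.univ : Set Ω)) (c := (1 : ℂ))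
  exact ⟨fun _ => (1 : ℂ), stronglyMeasurable_const, by
    filter_upwards [h1c] with ω e
    unfold oneL2
    rw [e]
    simp⟩

end

theorem main {Ω : Type*} (A B : MeasurableSpace Ω) {mΩ : MeasurableSpace Ω} {μ : Measure Ω}
    [IsProbabilityMeasure μ]
    (T : Ω ≃ᵐ Ω) (hT : MeasurePreserving T μ μ) (k : ℕ) (hk : ACSpectrumLE T hT k)
    (hAm : A ≤ mΩ) (hBm : B ≤ mΩ)
    (hA : MeasurableSpace.comap T A = A) (hB : MeasurableSpace.comap T B = B)
    (hAB : Indep A B μ) :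
    (∀ s, MeasurableSet[A] s → μ s = 0 ∨ μ s = 1) ∨
      (∀ s, MeasurableSet[B] s → μ s = 0 ∨ μ s = 1) := by
  by_contra hcon
  push Not at hcon
  obtain ⟨⟨s, hs, hs0, hs1⟩, t, ht, ht0, ht1⟩ := hcon
  obtain ⟨φ, hφ, hφA, hφ0⟩ := exists_centred hAm hs hs0 hs1
  obtain ⟨ψ, hψ, hψB, hψ0⟩ := exists_centred hBm ht ht0 ht1
  obtain ⟨f, C, hC, hf0, hbes, hcl⟩ := hk
  have : Fact (A ≤ mΩ) := ⟨hAm⟩
  have : Fact (B ≤ mΩ) := ⟨hBm⟩
  refine core (koopman T hT) (lpMeas ℂ ℂ A 2 μ) (lpMeas ℂ ℂ B 2 μ) (red T hT hA) (red T hT hB)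
    (oneL2 μ) one_mem one_mem mulL2 ?_ ?_ ?_ f C hC ?_ hbes ?_ φ ψ hφ hψ hφA hψB hφ0 hψ0
  · intro x hx y hy x' hx' y' hy'
    rw [mem_lpMeas_iff_aestronglyMeasurable] at hx hy hx' hy'
    exact mulL2_inner hAB hx hy hx' hy'
  · intro x hx y hy
    rw [mem_lpMeas_iff_aestronglyMeasurable] at hx hy
    exact koopman_mulL2 T hT hAB hx hy (koopman_meas T hT hA.le hx) (koopman_meas T hT hB.le hy)
  · intro x hx y hy
    rw [mem_lpMeas_iff_aestronglyMeasurable] at hx hy
    rw [one_inner, one_inner, one_inner]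
    exact mulL2_int hAB hx hy
  · intro i
    rw [one_inner]
    exact hf0 i
  · intro g hg
    rw [one_inner] at hg
    exact hcl g hg

end Vale.P130
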