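import Vale.Agent.P130.FDefs
import Vale.Agent.P130.Main

/-!
# P130: from functions to `L²`
-/

open scoped InnerProductSpace ComplexConjugate
open MeasureTheory ProbabilityTheory Filter

namespace Vale.P130

section
variable {Ω : Type*} [mΩ : MeasurableSpace Ω] {μ : Measure Ω}

lemma pw_succ (T : Ω ≃ᵐ Ω) (n : ℤ) (x : Ω) : pw T (n + 1) x = pw T n (T x) := by
  unfold pw
  rw [zpow_add_one]
  rfl

lemma pw_pred (T : Ω ≃ᵐ Ω) (n : ℤ) (x : Ω) : pw T (n - 1) x = pw T n (T.symm x) := by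
  unfold pw
  rw [zpow_sub_one]
  rfl

lemma koopman_inv (T : Ω ≃ᵐ Ω) (hT : MeasurePreserving T μ μ) (x : Lp ℂ 2 μ) :
    (koopman T hT)⁻¹ x = koopman T.symm (hT.symm T) x := by
  apply (koopman T hT).injective
  have e1 : koopman T hT ((koopman T hT)⁻¹ x) = x := (koopman T hT).apply_symm_apply x
  rw [e1]
  apply Lp.ext
  have h2 := hT.quasiMeasurePreserving.ae_eq_comp (koopman_coe T.symm (hT.symm T) x)
  have h3 := koopman_coe T hT (koopman T.symm (hT.symm T) x)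
  refine (h3.trans (h2.trans ?_)).symm
  filter_upwards with ω
  simp

lemma koopman_zpow (T : Ω ≃ᵐ Ω) (hT : MeasurePreserving T μ μ) (n : ℤ) (F : Lp ℂ 2 μ) :
    ((koopman T hT ^ n) F : Ω → ℂ) =ᵐ[μ] fun x => F (pw T n x) := by
  induction n using Int.induction_on with
  | zero =>
    filter_upwards with x
    simp [pw]
  | succ n ih =>
    have h1 : (koopman T hT ^ ((n : ℤ) + 1)) F = koopman T hT ((koopman T hT ^ (n : ℤ)) F) := by
      rw [add_comm, zpow_one_add]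
      rfl
    rw [h1]
    refine (koopman_coe T hT _).trans ((hT.quasiMeasurePreserving.ae_eq_comp ih).trans ?_)
    filter_upwards with x
    rw [pw_succ]
    rfl
  | pred n ih =>
    have h1 : (koopman T hT ^ (-(n : ℤ) - 1)) F =
        (koopman T hT)⁻¹ ((koopman T hT ^ (-(n : ℤ))) F) := by
      rw [sub_eq_add_neg, add_comm, zpow_add, zpow_neg_one]
      rfl
    rw [h1, koopman_inv]
    refine (koopman_coe T.symm (hT.symm T) _).trans
      (((hT.symm T).quasiMeasurePreserving.ae_eq_comp ih).trans ?_)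
    filter_upwards with x
    rw [pw_pred]
    rfl

lemma norm_sq (G : Lp ℂ 2 μ) : ‖G‖ ^ 2 = ∫ x, ‖G x‖ ^ 2 ∂μ := by
  have h1 : ((‖G‖ ^ 2 : ℝ) : ℂ) = ((∫ x, ‖G x‖ ^ 2 ∂μ : ℝ) : ℂ) := by
    have e1 : ((‖G‖ : ℂ)) ^ 2 = ⟪G, G⟫_ℂ := (inner_self_eq_norm_sq_to_K (𝕜 := ℂ) G).symm
    push_cast
    rw [e1, inner_eq, ← integral_complex_ofReal]
    apply integral_congr_ae
    filter_upwards with x
    rw [mul_comm, Complex.mul_conj, Complex.normSq_eq_norm_sq]
  exact_mod_cast h1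

lemma coe_sum {α : Type*} (s : Finset α) (c : α → ℂ) (G : α → Lp ℂ 2 μ) :
    ((∑ q ∈ s, c q • G q : Lp ℂ 2 μ) : Ω → ℂ) =ᵐ[μ] fun x => ∑ q ∈ s, c q * G q x := by
  classical
  induction s using Finset.induction_on with
  | empty =>
    simp only [Finset.sum_empty]
    exact Lp.coeFn_zero ℂ 2 μ
  | insert a s ha ih =>
    rw [Finset.sum_insert ha]
    filter_upwards [Lp.coeFn_add (c a • G a) (∑ q ∈ s, c q • G q), Lp.coeFn_smul (c a) (G a), ih]
      with x e1 e2 e3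
    rw [e1, Pi.add_apply, e2, e3, Finset.sum_insert ha]
    rfl

/-- the orbit combination -/
lemma coe_comb (T : Ω ≃ᵐ Ω) (hT : MeasurePreserving T μ μ) {k : ℕ} (f : Fin k → Ω → ℂ)
    (hf : ∀ i, MemLp (f i) 2 μ) (s : Finset (Fin k × ℤ)) (c : Fin k × ℤ → ℂ) :
    ((∑ q ∈ s, c q • (koopman T hT ^ q.2) ((hf q.1).toLp (f q.1)) : Lp ℂ 2 μ) : Ω → ℂ) =ᵐ[μ]
      fun x => ∑ q ∈ s, c q * f q.1 (pw T q.2 x) := by
  have h1 := coe_sum s c (fun q => (koopman T hT ^ q.2) ((hf q.1).toLp (f q.1)) : _ → Lp ℂ 2 μ)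
  have hpw : ∀ n : ℤ, MeasurePreserving (pw T n) μ μ := by
    intro n
    induction n using Int.induction_on with
    | zero =>
      have : pw T 0 = id := by
        funext x
        simp [pw]
      rw [this]
      exact MeasurePreserving.id μ
    | succ n ih =>
      have : pw T ((n : ℤ) + 1) = pw T n ∘ T := by
        funext x
        exact pw_succ T n x
      rw [this]
      exact ih.comp hT
    | pred n ih =>
      have : pw T (-(n : ℤ) - 1) = pw T (-(n : ℤ)) ∘ T.symm := by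
        funext x
        exact pw_pred T _ x
      rw [this]
      exact ih.comp (hT.symm T)
  have h2 : ∀ q ∈ s, ∀ᵐ x ∂μ,
      ((koopman T hT ^ q.2) ((hf q.1).toLp (f q.1)) : Lp ℂ 2 μ) x = f q.1 (pw T q.2 x) := by
    intro q _
    exact (koopman_zpow T hT q.2 _).trans
      ((hpw q.2).quasiMeasurePreserving.ae_eq_comp (MemLp.coeFn_toLp (hf q.1)))
  have h3 : ∀ᵐ x ∂μ, ∀ q ∈ s,
      ((koopman T hT ^ q.2) ((hf q.1).toLp (f q.1)) : Lp ℂ 2 μ) x = f q.1 (pw T q.2 x) :=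
    (ae_ball_iff s.countable_toSet).2 h2
  filter_upwards [h1, h3] with x e1 e2
  rw [e1]
  exact Finset.sum_congr rfl fun q hq => by rw [e2 q hq]

lemma coe_comb1 (T : Ω ≃ᵐ Ω) (hT : MeasurePreserving T μ μ) {k : ℕ} (f : Fin k → Ω → ℂ)
    (hf : ∀ i, MemLp (f i) 2 μ) (i : Fin k) (s : Finset ℤ) (c : ℤ → ℂ) :
    ((∑ n ∈ s, c n • (koopman T hT ^ n) ((hf i).toLp (f i)) : Lp ℂ 2 μ) : Ω → ℂ) =ᵐ[μ]
      fun x => ∑ n ∈ s, c n * f i (pw T n x) := by
  classical
  have h2 := coe_comb T hT f hf (s.map ⟨fun n => (i, n), fun a b hab =>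
    (Prod.ext_iff.1 hab).2⟩) (fun q => c q.2)
  simp only [Finset.sum_map] at h2
  exact h2

theorem ac_of (T : Ω ≃ᵐ Ω) (hT : MeasurePreserving T μ μ) (k : ℕ) (h : ACSpectrum μ T k) :
    ACSpectrumLE T hT k := by
  classical
  obtain ⟨f, B, hB, hf, h0, hbes, hd⟩ := h
  refine ⟨fun i => (hf i).toLp (f i), B, hB, ?_, ?_, ?_⟩
  · intro i
    rw [integral_congr_ae (MemLp.coeFn_toLp (hf i))]
    exact h0 i
  · intro i s c
    have h1 := hbes i s c
    change ‖∑ n ∈ s, c n • (koopman T hT ^ n) ((hf i).toLp (f i))‖ ^ 2 ≤ _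
    have h2 := coe_comb1 T hT f hf i s c
    rw [norm_sq]
    refine le_trans (le_of_eq ?_) h1
    apply integral_congr_ae
    filter_upwards [h2] with x e
    rw [e]
  · intro g hg
    rw [← SetLike.mem_coe, Submodule.topologicalClosure_coe, Metric.mem_closure_iff]
    intro ε hε
    obtain ⟨s, c, hsc⟩ := hd g (Lp.memLp g) hg (ε ^ 2) (by positivity)
    refine ⟨∑ q ∈ s, c q • (koopman T hT ^ q.2) ((hf q.1).toLp (f q.1)), ?_, ?_⟩
    · apply Submodule.sum_mem
      intro q _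
      apply Submodule.smul_mem
      exact Submodule.subset_span ⟨q, rfl⟩
    · rw [dist_eq_norm]
      apply lt_of_pow_lt_pow_left₀ 2 hε.le
      rw [norm_sq]
      refine lt_of_le_of_lt (le_of_eq ?_) hsc
      apply integral_congr_ae
      filter_upwards [coe_comb T hT f hf s c,
        Lp.coeFn_sub g (∑ q ∈ s, c q • (koopman T hT ^ q.2) ((hf q.1).toLp (f q.1)))] with x e1 e2
      rw [e2, Pi.sub_apply, e1]

/-- Lebesgue spectrum of multiplicity `k` implies `ACSpectrum` -/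
theorem leb_ac (T : Ω ≃ᵐ Ω) (hT : MeasurePreserving T μ μ) (k : ℕ) (h : LebesgueSpec μ T k) :
    ACSpectrum μ T k := by
  classical
  obtain ⟨f, hf, h0, ho, hd⟩ := h
  refine ⟨f, 1, zero_le_one, hf, h0, ?_, hd⟩
  intro i s c
  rw [one_mul]
  set F : ℤ → Lp ℂ 2 μ := fun n => (koopman T hT ^ n) ((hf i).toLp (f i)) with hF
  have h2 := coe_comb1 T hT f hf i s c
  have hort : Orthonormal ℂ F := by
    rw [orthonormal_iff_ite]
    intro m n
    have e1 := coe_comb T hT f hf {(i, m)} (fun _ => 1)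
    have e2 := coe_comb T hT f hf {(i, n)} (fun _ => 1)
    simp only [Finset.sum_singleton, one_smul, one_mul] at e1 e2
    rw [inner_eq]
    have h3 := ho i i m n
    simp only [true_and] at h3
    rw [← h3]
    apply integral_congr_ae
    filter_upwards [e1, e2] with x a1 a2
    rw [hF]
    simp only
    rw [a1, a2]
  have h4 := hort.inner_sum c c s
  have h5 : ‖∑ n ∈ s, c n • F n‖ ^ 2 = ∑ n ∈ s, ‖c n‖ ^ 2 := by
    have h6 : ((‖∑ n ∈ s, c n • F n‖ ^ 2 : ℝ) : ℂ) = ((∑ n ∈ s, ‖c n‖ ^ 2 : ℝ) : ℂ) := by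
      push_cast
      have e2 : ∀ x : Lp ℂ 2 μ, ((‖x‖ : ℂ)) ^ 2 = inner ℂ x x := fun x =>
        (inner_self_eq_norm_sq_to_K (𝕜 := ℂ) x).symm
      rw [e2, h4]
      apply Finset.sum_congr rfl
      intro n _
      rw [mul_comm, Complex.mul_conj, Complex.normSq_eq_norm_sq]
      push_cast
      rfl
    exact_mod_cast h6
  rw [← h5, norm_sq]
  apply le_of_eq
  apply integral_congr_ae
  filter_upwards [h2] with x e
  rw [← e]

end

end Vale.P130
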