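import Vale.Agent.P130.Hilb

/-!
# P130: two commuting reducing subspaces with a tensor product (Hilbert space form)
-/

open scoped InnerProductSpace ComplexConjugate
open Finset

namespace Vale.P130

variable {H : Type*} [NormedAddCommGroup H] [InnerProductSpace ℂ H]

/-- `K` reduces `U` -/
structure Red (U : H ≃ₗᵢ[ℂ] H) (K : Submodule ℂ H) : Prop where
  fwd : ∀ x ∈ K, U x ∈ K
  bwd : ∀ x ∈ K, U⁻¹ x ∈ K

lemma inner_inv (U : H ≃ₗᵢ[ℂ] H) (x y : H) : ⟪x, U y⟫_ℂ = ⟪U⁻¹ x, y⟫_ℂ := by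
  rw [← U.inner_map_map (U⁻¹ x) y]
  congr 1
  exact (U.apply_symm_apply x).symm

lemma Red.zpow {U : H ≃ₗᵢ[ℂ] H} {K : Submodule ℂ H} (h : Red U K) (n : ℤ) :
    ∀ x ∈ K, (U ^ n) x ∈ K := by
  induction n using Int.induction_on with
  | zero => intro x hx; simpa using hx
  | succ n ih =>
    intro x hx
    rw [zpow_add_one]
    exact ih _ (h.fwd x hx)
  | pred n ih =>
    intro x hx
    rw [zpow_sub_one]
    exact ih _ (h.bwd x hx)

lemma Red.proj {U : H ≃ₗᵢ[ℂ] H} {K : Submodule ℂ H} [K.HasOrthogonalProjection] (h : Red U K)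
    (x : H) : K.starProjection (U x) = U (K.starProjection x) := by
  apply Submodule.eq_starProjection_of_mem_of_inner_eq_zero
  · exact h.fwd _ (Submodule.starProjection_apply_mem K x)
  · intro w hw
    rw [← map_sub, ← inner_conj_symm, inner_inv, inner_conj_symm]
    exact Submodule.starProjection_inner_eq_zero x _ (h.bwd w hw)

lemma Red.inv {U : H ≃ₗᵢ[ℂ] H} {K : Submodule ℂ H} (h : Red U K) : Red U⁻¹ K :=
  ⟨h.bwd, by simpa using h.fwd⟩

lemma Red.proj_zpow {U : H ≃ₗᵢ[ℂ] H} {K : Submodule ℂ H} [K.HasOrthogonalProjection]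
    (h : Red U K) (n : ℤ) (x : H) :
    K.starProjection ((U ^ n) x) = (U ^ n) (K.starProjection x) := by
  have h1 : ∀ n : ℤ, Red (U ^ n) K := fun n =>
    ⟨h.zpow n, by
      intro x hx
      have := h.zpow (-n) x hx
      rwa [zpow_neg] at this⟩
  exact (h1 n).proj x

lemma Bessel.comp {ι κ : Type*} {B : ℝ} {v : ι → H} (h : Bessel B v) (e : κ ↪ ι) :
    Bessel B (fun x => v (e x)) := by
  classical
  intro s c
  have h1 := h (s.map e) (fun i => if hi : ∃ x, e x = i then c hi.choose else 0)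
  rw [Finset.sum_map, Finset.sum_map] at h1
  have h2 : ∀ x, (if hi : ∃ y, e y = e x then c hi.choose else 0) = c x := by
    intro x
    have hx : ∃ y, e y = e x := ⟨x, rfl⟩
    rw [dif_pos hx]
    congr 1
    exact e.injective hx.choose_spec
  simp only [h2] at h1
  exact h1

lemma Bessel.proj {U : H ≃ₗᵢ[ℂ] H} {K : Submodule ℂ H} [K.HasOrthogonalProjection]
    (h : Red U K) {B : ℝ} {f : H} (hf : Bessel B (fun n : ℤ => (U ^ n) f)) :
    Bessel B (fun n : ℤ => (U ^ n) (K.starProjection f)) := by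
  intro s c
  have h1 : ∑ n ∈ s, c n • (U ^ n) (K.starProjection f)
      = K.starProjection (∑ n ∈ s, c n • (U ^ n) f) := by
    rw [map_sum]
    apply Finset.sum_congr rfl
    intro n _
    rw [map_smul, h.proj_zpow]
  rw [h1]
  refine le_trans ?_ (hf s c)
  apply pow_le_pow_left₀ (norm_nonneg _)
  have h2 := K.starProjection.le_opNorm (∑ n ∈ s, c n • (U ^ n) f)
  have h3 := Submodule.starProjection_norm_le K
  calc _ ≤ ‖K.starProjection‖ * ‖∑ n ∈ s, c n • (U ^ n) f‖ := h2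
    _ ≤ 1 * ‖∑ n ∈ s, c n • (U ^ n) f‖ := mul_le_mul_of_nonneg_right h3 (norm_nonneg _)
    _ = _ := one_mul _

/-- some generator has a nonzero projection -/
lemma exists_proj {U : H ≃ₗᵢ[ℂ] H} {K : Submodule ℂ H} [K.HasOrthogonalProjection]
    (h : Red U K) {k : ℕ} (f : Fin k → H) (φ : H) (hφK : φ ∈ K) (hφ : φ ≠ 0)
    (hcl : φ ∈ (Submodule.span ℂ (Set.range (fun q : Fin k × ℤ =>
      (U ^ q.2) (f q.1)))).topologicalClosure) : ∃ i, K.starProjection (f i) ≠ 0 := by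
  by_contra hcon
  push Not at hcon
  apply hφ
  have h1 : (Submodule.span ℂ (Set.range (fun q : Fin k × ℤ => (U ^ q.2) (f q.1)))) ≤
      LinearMap.ker (K.starProjection : H →ₗ[ℂ] H) := by
    rw [Submodule.span_le]
    rintro _ ⟨q, rfl⟩
    change K.starProjection ((U ^ q.2) (f q.1)) = 0
    rw [h.proj_zpow, hcon, map_zero]
  have h2 : (Submodule.span ℂ (Set.range (fun q : Fin k × ℤ =>
      (U ^ q.2) (f q.1)))).topologicalClosure ≤ LinearMap.ker (K.starProjection : H →ₗ[ℂ] H) := by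
    apply Submodule.topologicalClosure_minimal _ h1
    exact ContinuousLinearMap.isClosed_ker K.starProjection
  have h3 : K.starProjection φ = 0 := h2 hcl
  rwa [Submodule.starProjection_eq_self_iff.2 hφK] at h3

theorem core (U : H ≃ₗᵢ[ℂ] H) (KA KB : Submodule ℂ H) [KA.HasOrthogonalProjection]
    [KB.HasOrthogonalProjection] (hA : Red U KA) (hB : Red U KB) (one : H) (h1A : one ∈ KA)
    (_h1B : one ∈ KB) (mul : H → H → H)
    (hin : ∀ x ∈ KA, ∀ y ∈ KB, ∀ x' ∈ KA, ∀ y' ∈ KB,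
      ⟪mul x y, mul x' y'⟫_ℂ = ⟪x, x'⟫_ℂ * ⟪y, y'⟫_ℂ)
    (hU : ∀ x ∈ KA, ∀ y ∈ KB, U (mul x y) = mul (U x) (U y))
    (hone : ∀ x ∈ KA, ∀ y ∈ KB, ⟪one, mul x y⟫_ℂ = ⟪one, x⟫_ℂ * ⟪one, y⟫_ℂ)
    {k : ℕ} (f : Fin k → H) (B : ℝ) (hB0 : 0 ≤ B) (hf0 : ∀ i, ⟪one, f i⟫_ℂ = 0)
    (hbes : ∀ i, Bessel B (fun n : ℤ => (U ^ n) (f i)))
    (hcl : ∀ g, ⟪one, g⟫_ℂ = 0 → g ∈ (Submodule.span ℂ (Set.range (fun q : Fin k × ℤ =>
      (U ^ q.2) (f q.1)))).topologicalClosure)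
    (φ ψ : H) (hφ : φ ≠ 0) (hψ : ψ ≠ 0) (hφA : φ ∈ KA) (hψB : ψ ∈ KB)
    (hφ0 : ⟪one, φ⟫_ℂ = 0) (hψ0 : ⟪one, ψ⟫_ℂ = 0) : False := by
  obtain ⟨i, hi⟩ := exists_proj hA f φ hφA hφ (hcl φ hφ0)
  obtain ⟨j, hj⟩ := exists_proj hB f ψ hψB hψ (hcl ψ hψ0)
  set a : H := KA.starProjection (f i) with ha
  set b : H := KB.starProjection (f j) with hb
  have haK : a ∈ KA := Submodule.starProjection_apply_mem KA _
  have hbK : b ∈ KB := Submodule.starProjection_apply_mem KB _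
  have ha0 : ⟪one, a⟫_ℂ = 0 := by
    have h1 := Submodule.starProjection_inner_eq_zero (K := KA) (f i) one h1A
    rw [inner_sub_left, sub_eq_zero] at h1
    rw [ha, ← inner_conj_symm, ← h1, inner_conj_symm, hf0]
  -- intertwining for all powers
  have hUinv : ∀ x ∈ KA, ∀ y ∈ KB, U⁻¹ (mul x y) = mul (U⁻¹ x) (U⁻¹ y) := by
    intro x hx y hy
    have h1 := hU _ (hA.bwd x hx) _ (hB.bwd y hy)
    have h2 : ∀ z, U (U⁻¹ z) = z := fun z => U.apply_symm_apply z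
    rw [h2, h2] at h1
    rw [← h1]
    exact U.symm_apply_apply _
  have hUz : ∀ n : ℤ, ∀ x ∈ KA, ∀ y ∈ KB, (U ^ n) (mul x y) = mul ((U ^ n) x) ((U ^ n) y) := by
    intro n
    induction n using Int.induction_on with
    | zero => intro x _ y _; simp
    | succ n ih =>
      intro x hx y hy
      rw [zpow_add_one]
      change (U ^ (n : ℤ)) (U (mul x y)) = mul ((U ^ (n : ℤ)) (U x)) ((U ^ (n : ℤ)) (U y))
      rw [hU x hx y hy, ih _ (hA.fwd x hx) _ (hB.fwd y hy)]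
    | pred n ih =>
      intro x hx y hy
      rw [zpow_sub_one]
      change (U ^ (-(n : ℤ))) (U⁻¹ (mul x y)) =
        mul ((U ^ (-(n : ℤ))) (U⁻¹ x)) ((U ^ (-(n : ℤ))) (U⁻¹ y))
      rw [hUinv x hx y hy, ih _ (hA.bwd x hx) _ (hB.bwd y hy)]
  -- the Bessel family
  have hbig : Bessel (B * B) (fun q : ℤ × ℤ => mul ((U ^ q.1) a) ((U ^ q.2) b)) := by
    apply tensor_bessel (fun n : ℤ => (U ^ n) a) (fun n : ℤ => (U ^ n) b) _ _ hB0
      (Bessel.proj hA (hbes i)) (Bessel.proj hB (hbes j))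
    intro p q
    exact hin _ (hA.zpow _ _ haK) _ (hB.zpow _ _ hbK) _ (hA.zpow _ _ haK) _ (hB.zpow _ _ hbK)
  have hr0 : 0 < ‖a‖ * ‖b‖ := mul_pos (norm_pos_iff.2 hi) (norm_pos_iff.2 hj)
  have main : ∀ D : ℕ, D * (‖a‖ * ‖b‖) ^ 2 ≤ B * B * k := by
    intro D
    apply mult_bound U f (fun d : Fin D => mul a ((U ^ ((d : ℕ) : ℤ)) b))
      (mul_nonneg hB0 hB0) hr0.le
    · have h1 := hbig.comp (κ := Fin D × ℤ)
        ⟨fun q => (q.2, q.2 + ((q.1 : ℕ) : ℤ)), by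
          rintro ⟨d, n⟩ ⟨d', n'⟩ h
          simp only [Prod.mk.injEq] at h
          obtain ⟨h1, h2⟩ := h
          subst h1
          have : d = d' := Fin.ext (by omega)
          rw [this]⟩
      have h2 : (fun q : Fin D × ℤ => (U ^ q.2) (mul a ((U ^ ((q.1 : ℕ) : ℤ)) b))) =
          fun q : Fin D × ℤ => mul ((U ^ q.2) a) ((U ^ (q.2 + ((q.1 : ℕ) : ℤ))) b) := by
        funext q
        rw [hUz _ _ haK _ (hB.zpow _ _ hbK), ← zpow_add_apply]
      rw [h2]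
      exact h1
    · intro d
      apply hcl
      rw [hone _ haK _ (hB.zpow _ _ hbK), ha0, zero_mul]
    · intro d
      have h1 := hin _ haK _ (hB.zpow ((d : ℕ) : ℤ) _ hbK) _ haK _
        (hB.zpow ((d : ℕ) : ℤ) _ hbK)
      have h2 : ‖mul a ((U ^ ((d : ℕ) : ℤ)) b)‖ ^ 2 = (‖a‖ * ‖b‖) ^ 2 := by
        have e2 : ∀ x : H, ((‖x‖ : ℂ)) ^ 2 = ⟪x, x⟫_ℂ := fun x =>
          (inner_self_eq_norm_sq_to_K (𝕜 := ℂ) x).symm
        have e3 : ((‖mul a ((U ^ ((d : ℕ) : ℤ)) b)‖ ^ 2 : ℝ) : ℂ) =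
            (((‖a‖ * ‖b‖) ^ 2 : ℝ) : ℂ) := by
          push_cast
          rw [e2, h1, mul_pow, e2, e2, LinearIsometryEquiv.inner_map_map]
        exact_mod_cast e3
      have h3 := (pow_left_inj₀ (norm_nonneg _) hr0.le (by norm_num : (2 : ℕ) ≠ 0)).1 h2
      exact h3.ge
  obtain ⟨D, hD⟩ := exists_nat_gt (B * B * k / (‖a‖ * ‖b‖) ^ 2)
  rw [div_lt_iff₀ (by positivity)] at hD
  exact absurd (main D) (not_le.2 hD)

end Vale.P130
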