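import Vale.Agent.P130.Hilb

/-!
# P130: Koopman operator, Lebesgue spectrum
-/

open scoped InnerProductSpace ComplexConjugate
open MeasureTheory ProbabilityTheory

namespace Vale.P130

variable {Ω : Type*} [mΩ : MeasurableSpace Ω]

/-- The Koopman operator `g ↦ g ∘ T` on complex `L²`, for an invertible measure preserving `T`. -/
noncomputable def koopman {μ : Measure Ω} (T : Ω ≃ᵐ Ω) (hT : MeasurePreserving T μ μ) :
    Lp ℂ 2 μ ≃ₗᵢ[ℂ] Lp ℂ 2 μ :=
  LinearIsometryEquiv.ofSurjective (Lp.compMeasurePreservingₗᵢ ℂ T hT) (by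
    intro g
    refine ⟨Lp.compMeasurePreserving T.symm (hT.symm T) g, ?_⟩
    change Lp.compMeasurePreserving T hT (Lp.compMeasurePreserving T.symm (hT.symm T) g) = g
    apply Lp.ext
    have h1 := Lp.coeFn_compMeasurePreserving (Lp.compMeasurePreserving T.symm (hT.symm T) g) hT
    have h2 := hT.quasiMeasurePreserving.ae_eq_comp
      (Lp.coeFn_compMeasurePreserving g (hT.symm T))
    refine h1.trans (h2.trans ?_)
    filter_upwards with x
    simp)

/-- the function `f ∘ T ^ n` -/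
noncomputable def orb {μ : Measure Ω} (T : Ω ≃ᵐ Ω) (hT : MeasurePreserving T μ μ) (f : Lp ℂ 2 μ)
    (n : ℤ) : Lp ℂ 2 μ := (koopman T hT ^ n) f

/-- the functions `f_i ∘ T ^ n` span a dense subspace of the mean zero functions -/
def Spans {μ : Measure Ω} (T : Ω ≃ᵐ Ω) (hT : MeasurePreserving T μ μ) (k : ℕ)
    (f : Fin k → Lp ℂ 2 μ) : Prop :=
  ∀ g : Lp ℂ 2 μ, ∫ x, g x ∂μ = 0 →
    g ∈ (Submodule.span ℂ (Set.range (fun q : Fin k × ℤ =>
      orb T hT (f q.1) q.2))).topologicalClosure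

/-- Bessel inequality for the orbit of `f` : `‖∑ c_n f∘T^n‖² ≤ B ∑ |c_n|²` -/
def OrbitBessel {μ : Measure Ω} (T : Ω ≃ᵐ Ω) (hT : MeasurePreserving T μ μ) (B : ℝ)
    (f : Lp ℂ 2 μ) : Prop :=
  ∀ (s : Finset ℤ) (c : ℤ → ℂ), ‖∑ n ∈ s, c n • orb T hT f n‖ ^ 2 ≤ B * ∑ n ∈ s, ‖c n‖ ^ 2

/-- `U_T` on the mean zero functions is generated by `k` vectors with Bessel orbits, i.e. the
spectrum is absolutely continuous with bounded multiplicity: there are mean zero `f_1, …, f_k`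
and a constant `B` such that each orbit satisfies `‖∑ c_n f_i∘T^n‖² ≤ B ∑ |c_n|²` and the
functions `f_i∘T^n` span a dense subspace of the mean zero functions. -/
def ACSpectrumLE {μ : Measure Ω} (T : Ω ≃ᵐ Ω) (hT : MeasurePreserving T μ μ) (k : ℕ) : Prop :=
  ∃ (f : Fin k → Lp ℂ 2 μ) (B : ℝ), 0 ≤ B ∧ (∀ i, ∫ x, f i x ∂μ = 0) ∧
    (∀ i, OrbitBessel T hT B (f i)) ∧ Spans T hT k f

/-- `T` has Lebesgue spectrum of multiplicity `k`: there are mean zero `f_1, …, f_k` such that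
`{f_i ∘ T^n}` is an orthonormal basis of the mean zero functions (`k = 1`: simple Lebesgue
spectrum). -/
def LebesgueSpectrum {μ : Measure Ω} (T : Ω ≃ᵐ Ω) (hT : MeasurePreserving T μ μ) (k : ℕ) :
    Prop :=
  ∃ f : Fin k → Lp ℂ 2 μ, (∀ i, ∫ x, f i x ∂μ = 0) ∧
    Orthonormal ℂ (fun q : Fin k × ℤ => orb T hT (f q.1) q.2) ∧ Spans T hT k f

/-- every set of the sub-σ-algebra `A` has measure `0` or `1` -/
def TrivialFactor {Ω : Type*} {mΩ : MeasurableSpace Ω} (μ : Measure Ω) (A : MeasurableSpace Ω) :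
    Prop :=
  ∀ s, MeasurableSet[A] s → μ s = 0 ∨ μ s = 1

/-- `A` is a `T`-invariant sub-σ-algebra (a factor of `T`) -/
def IsFactor {Ω : Type*} {mΩ : MeasurableSpace Ω} (T : Ω ≃ᵐ Ω) (A : MeasurableSpace Ω) : Prop :=
  A ≤ mΩ ∧ MeasurableSpace.comap T A = A

end Vale.P130
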