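import Mathlib

/-!
# P130: definitions in terms of functions (no Koopman operator)
-/

open MeasureTheory

namespace Vale.P130

/-- the iterate `T ^ n` of an invertible transformation, `n` an integer -/
def pw {Ω : Type*} [MeasurableSpace Ω] (T : Ω ≃ᵐ Ω) (n : ℤ) : Ω → Ω :=
  ((T.toEquiv : Equiv.Perm Ω) ^ n : Equiv.Perm Ω)

/-- the functions `f_i ∘ T ^ n` (`i < k`, `n` an integer) span a dense subspace of the mean zero
functions of `L²` -/
def Dense0 {Ω : Type*} [MeasurableSpace Ω] (μ : Measure Ω) (T : Ω ≃ᵐ Ω) (k : ℕ)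
    (f : Fin k → Ω → ℂ) : Prop :=
  ∀ g : Ω → ℂ, MemLp g 2 μ → ∫ x, g x ∂μ = 0 → ∀ ε : ℝ, 0 < ε →
    ∃ (s : Finset (Fin k × ℤ)) (c : Fin k × ℤ → ℂ),
      ∫ x, ‖g x - ∑ q ∈ s, c q * f q.1 (pw T q.2 x)‖ ^ 2 ∂μ < ε

/-- the functions `f ∘ T ^ n` satisfy a Bessel inequality with constant `B` -/
def OrbitBesselF {Ω : Type*} [MeasurableSpace Ω] (μ : Measure Ω) (T : Ω ≃ᵐ Ω) (B : ℝ)
    (f : Ω → ℂ) : Prop :=
  ∀ (s : Finset ℤ) (c : ℤ → ℂ), ∫ x, ‖∑ n ∈ s, c n * f (pw T n x)‖ ^ 2 ∂μ ≤ B * ∑ n ∈ s, ‖c n‖ ^ 2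

/-- absolutely continuous spectrum with at most `k` Bessel generators: there are mean zero square
integrable `f_1, …, f_k` and `B` such that each orbit `f_i ∘ T ^ n` satisfies the Bessel inequality
with constant `B` and the `f_i ∘ T ^ n` span a dense subspace of the mean zero functions -/
def ACSpectrum {Ω : Type*} [MeasurableSpace Ω] (μ : Measure Ω) (T : Ω ≃ᵐ Ω) (k : ℕ) : Prop :=
  ∃ (f : Fin k → Ω → ℂ) (B : ℝ), 0 ≤ B ∧ (∀ i, MemLp (f i) 2 μ) ∧ (∀ i, ∫ x, f i x ∂μ = 0) ∧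
    (∀ i, OrbitBesselF μ T B (f i)) ∧ Dense0 μ T k f

/-- Lebesgue spectrum of multiplicity `k`: there are mean zero square integrable `f_1, …, f_k` such
that the `f_i ∘ T ^ n` form an orthonormal basis of the mean zero functions of `L²` (`k = 1`:
simple Lebesgue spectrum) -/
def LebesgueSpec {Ω : Type*} [MeasurableSpace Ω] (μ : Measure Ω) (T : Ω ≃ᵐ Ω) (k : ℕ) : Prop :=
  ∃ f : Fin k → Ω → ℂ, (∀ i, MemLp (f i) 2 μ) ∧ (∀ i, ∫ x, f i x ∂μ = 0) ∧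
    (∀ i j m n, ∫ x, (starRingEnd ℂ) (f i (pw T m x)) * f j (pw T n x) ∂μ =
      if i = j ∧ m = n then 1 else 0) ∧ Dense0 μ T k f

/-- every set of the sub-σ-algebra `A` has measure `0` or `1` -/
def TrivialF {Ω : Type*} {mΩ : MeasurableSpace Ω} (μ : Measure Ω) (A : MeasurableSpace Ω) :
    Prop :=
  ∀ s, MeasurableSet[A] s → μ s = 0 ∨ μ s = 1

/-- `A` is a `T`-invariant sub-σ-algebra (a factor of `T`) -/
def IsFac {Ω : Type*} {mΩ : MeasurableSpace Ω} (T : Ω ≃ᵐ Ω) (A : MeasurableSpace Ω) : Prop :=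
  A ≤ mΩ ∧ MeasurableSpace.comap T A = A

end Vale.P130
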