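import Mathlib

/-!
# P130: Hilbert space lemmas (Bessel families, multiplicity bound)
-/

open scoped InnerProductSpace ComplexConjugate
open Finset

namespace Vale.P130

variable {H : Type*} [NormedAddCommGroup H] [InnerProductSpace ℂ H]

/-- Bessel bound `‖∑ c_i v_i‖² ≤ B ∑ |c_i|²` for a family of vectors -/
def Bessel {ι : Type*} (B : ℝ) (v : ι → H) : Prop :=
  ∀ (s : Finset ι) (c : ι → ℂ), ‖∑ i ∈ s, c i • v i‖ ^ 2 ≤ B * ∑ i ∈ s, ‖c i‖ ^ 2

lemma Bessel.dual {ι : Type*} {B : ℝ} {v : ι → H} (h : Bessel B v) (hB : 0 ≤ B)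
    (s : Finset ι) (x : H) : ∑ i ∈ s, ‖⟪v i, x⟫_ℂ‖ ^ 2 ≤ B * ‖x‖ ^ 2 := by
  set S : ℝ := ∑ i ∈ s, ‖⟪v i, x⟫_ℂ‖ ^ 2 with hS
  set y : H := ∑ i ∈ s, ⟪v i, x⟫_ℂ • v i with hy
  have hS0 : 0 ≤ S := Finset.sum_nonneg fun i _ => by positivity
  have h1 : ⟪y, x⟫_ℂ = (S : ℂ) := by
    rw [hy, sum_inner, hS]
    push_cast
    apply Finset.sum_congr rfl
    intro i _
    rw [inner_smul_left, mul_comm, Complex.mul_conj, Complex.normSq_eq_norm_sq]
    push_cast
    ring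
  have h2 : S ≤ ‖y‖ * ‖x‖ := by
    have h3 : ‖⟪y, x⟫_ℂ‖ = S := by
      rw [h1, Complex.norm_real, Real.norm_of_nonneg hS0]
    rw [← h3]
    exact norm_inner_le_norm y x
  have h4 : ‖y‖ ^ 2 ≤ B * S := h s fun i => ⟪v i, x⟫_ℂ
  rcases hS0.eq_or_lt with h0 | h0
  · rw [← h0]
    positivity
  · have h5 : S ^ 2 ≤ (B * S) * ‖x‖ ^ 2 := by
      calc S ^ 2 ≤ (‖y‖ * ‖x‖) ^ 2 := by
            apply pow_le_pow_left₀ hS0 h2
        _ = ‖y‖ ^ 2 * ‖x‖ ^ 2 := by ring
        _ ≤ (B * S) * ‖x‖ ^ 2 := mul_le_mul_of_nonneg_right h4 (by positivity)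
    have h6 : S * S ≤ (B * ‖x‖ ^ 2) * S := by nlinarith
    exact le_of_mul_le_mul_right h6 h0

lemma inner_expand {α : Type*} (s : Finset α) (a : α → ℂ) (x : α → H) :
    ⟪∑ p ∈ s, a p • x p, ∑ q ∈ s, a q • x q⟫_ℂ
      = ∑ p ∈ s, ∑ q ∈ s, (starRingEnd ℂ) (a p) * a q * ⟪x p, x q⟫_ℂ := by
  rw [sum_inner]
  apply Finset.sum_congr rfl
  intro p _
  rw [inner_sum]
  apply Finset.sum_congr rfl
  intro q _
  rw [inner_smul_left, inner_smul_right]
  ring

/-- families with product Gram matrices -/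
lemma tensor_bessel {ι κ : Type*} (g : ι → H) (h : κ → H) (v : ι × κ → H)
    (hv : ∀ p q, ⟪v p, v q⟫_ℂ = ⟪g p.1, g q.1⟫_ℂ * ⟪h p.2, h q.2⟫_ℂ) {Bg Bh : ℝ}
    (hBg : 0 ≤ Bg) (hg : Bessel Bg g) (hh : Bessel Bh h) :
    Bessel (Bg * Bh) v := by
  classical
  intro s c
  set W : Submodule ℂ H := Submodule.span ℂ ((s.image (fun p => h p.2) : Finset H) : Set H)
    with hW
  have : FiniteDimensional ℂ W := FiniteDimensional.span_finset ℂ _
  set e := stdOrthonormalBasis ℂ W with he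
  have hmem : ∀ p ∈ s, h p.2 ∈ W := by
    intro p hp
    exact Submodule.subset_span (Finset.mem_coe.2 (Finset.mem_image_of_mem _ hp))
  have hort : Orthonormal ℂ (fun l => (e l : H)) :=
    e.orthonormal.comp_linearIsometry W.subtypeₗᵢ
  set z : H := ∑ p ∈ s, c p • v p with hz
  set zl : Fin (Module.finrank ℂ W) → H := fun l =>
    ∑ p ∈ s, (c p * ⟪(e l : H), h p.2⟫_ℂ) • g p.1 with hzl
  have h1 : ⟪z, z⟫_ℂ = ∑ l, ⟪zl l, zl l⟫_ℂ := by
    simp only [hz, hzl]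
    rw [inner_expand]
    have e0 : ∀ l, ⟪∑ p ∈ s, (c p * ⟪(e l : H), h p.2⟫_ℂ) • g p.1,
        ∑ p ∈ s, (c p * ⟪(e l : H), h p.2⟫_ℂ) • g p.1⟫_ℂ = ∑ p ∈ s, ∑ q ∈ s,
          (starRingEnd ℂ) (c p * ⟪(e l : H), h p.2⟫_ℂ) * (c q * ⟪(e l : H), h q.2⟫_ℂ)
            * ⟪g p.1, g q.1⟫_ℂ := fun l => inner_expand s _ _
    rw [Finset.sum_congr rfl fun l _ => e0 l, Finset.sum_comm (s := Finset.univ) (t := s)]
    apply Finset.sum_congr rfl
    intro p hp
    rw [Finset.sum_comm (s := Finset.univ) (t := s)]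
    apply Finset.sum_congr rfl
    intro q hq
    have e1 : ⟪h p.2, h q.2⟫_ℂ
        = ∑ l, ⟪h p.2, (e l : H)⟫_ℂ * ⟪(e l : H), h q.2⟫_ℂ := by
      have := e.sum_inner_mul_inner ⟨h p.2, hmem p hp⟩ ⟨h q.2, hmem q hq⟩
      simpa using this.symm
    rw [hv, e1, Finset.mul_sum, Finset.mul_sum]
    apply Finset.sum_congr rfl
    intro l _
    rw [map_mul, inner_conj_symm]
    ring
  have h2 : ‖z‖ ^ 2 = ∑ l, ‖zl l‖ ^ 2 := by
    have e1 : ((‖z‖ ^ 2 : ℝ) : ℂ) = ((∑ l, ‖zl l‖ ^ 2 : ℝ) : ℂ) := by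
      push_cast
      have e2 : ∀ x : H, ((‖x‖ : ℂ)) ^ 2 = ⟪x, x⟫_ℂ := fun x =>
        (inner_self_eq_norm_sq_to_K (𝕜 := ℂ) x).symm
      rw [e2 z, h1]
      exact Finset.sum_congr rfl fun l _ => (e2 (zl l)).symm
    exact_mod_cast e1
  set I : Finset ι := s.image Prod.fst with hI
  set x : ι → H := fun a => ∑ p ∈ s with p.1 = a, c p • h p.2 with hx
  have h3 : ∀ l, ‖zl l‖ ^ 2 ≤ Bg * ∑ a ∈ I, ‖⟪(e l : H), x a⟫_ℂ‖ ^ 2 := by
    intro l
    have e1 : zl l = ∑ a ∈ I, ⟪(e l : H), x a⟫_ℂ • g a := by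
      simp only [hzl]
      rw [← Finset.sum_fiberwise_of_maps_to (s := s) (t := I) (g := Prod.fst)
        (fun p hp => Finset.mem_image_of_mem _ hp)]
      apply Finset.sum_congr rfl
      intro a _
      simp only [hx]
      rw [inner_sum, Finset.sum_smul]
      apply Finset.sum_congr rfl
      intro p hp
      rw [(Finset.mem_filter.1 hp).2, inner_smul_right]
    rw [e1]
    exact hg I _
  have h4 : ∀ a, ∑ l, ‖⟪(e l : H), x a⟫_ℂ‖ ^ 2 ≤ ‖x a‖ ^ 2 := fun a =>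
    hort.sum_inner_products_le (x a)
  have h5 : ∀ a, ‖x a‖ ^ 2 ≤ Bh * ∑ p ∈ s with p.1 = a, ‖c p‖ ^ 2 := by
    intro a
    have hinj : Set.InjOn (Prod.snd : ι × κ → κ) (s.filter (fun p => p.1 = a)) := by
      intro p hp q hq hpq
      have hp' := (Finset.mem_filter.1 (Finset.mem_coe.1 hp)).2
      have hq' := (Finset.mem_filter.1 (Finset.mem_coe.1 hq)).2
      exact Prod.ext (hp'.trans hq'.symm) hpq
    have e1 : x a = ∑ b ∈ (s.filter (fun p => p.1 = a)).image Prod.snd, c (a, b) • h b := by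
      rw [Finset.sum_image hinj]
      simp only [hx]
      apply Finset.sum_congr rfl
      intro p hp
      have := (Finset.mem_filter.1 hp).2
      rw [← this]
    have e2 : ∑ p ∈ s with p.1 = a, ‖c p‖ ^ 2
        = ∑ b ∈ (s.filter (fun p => p.1 = a)).image Prod.snd, ‖c (a, b)‖ ^ 2 := by
      rw [Finset.sum_image hinj]
      apply Finset.sum_congr rfl
      intro p hp
      have := (Finset.mem_filter.1 hp).2
      rw [← this]
    rw [e1, e2]
    exact hh _ fun b => c (a, b)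
  calc ‖z‖ ^ 2 = ∑ l, ‖zl l‖ ^ 2 := h2
    _ ≤ ∑ l, Bg * ∑ a ∈ I, ‖⟪(e l : H), x a⟫_ℂ‖ ^ 2 := Finset.sum_le_sum fun l _ => h3 l
    _ = Bg * ∑ a ∈ I, ∑ l, ‖⟪(e l : H), x a⟫_ℂ‖ ^ 2 := by
        rw [← Finset.mul_sum, Finset.sum_comm]
    _ ≤ Bg * ∑ a ∈ I, Bh * ∑ p ∈ s with p.1 = a, ‖c p‖ ^ 2 := by
        apply mul_le_mul_of_nonneg_left _ hBg
        exact Finset.sum_le_sum fun a _ => (h4 a).trans (h5 a)
    _ = Bg * Bh * ∑ p ∈ s, ‖c p‖ ^ 2 := by
        rw [← Finset.mul_sum, Finset.sum_fiberwise_of_maps_to (s := s) (t := I) (g := Prod.fst)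
          (fun p hp => Finset.mem_image_of_mem _ hp) (fun p => ‖c p‖ ^ 2), mul_assoc]

section mult

variable (U : H ≃ₗᵢ[ℂ] H)

lemma zpow_add_apply (m n : ℤ) (x : H) : (U ^ (m + n)) x = (U ^ m) ((U ^ n) x) := by
  rw [zpow_add]
  rfl

/-- finite windows of the orbits of `f` -/
def win {k : ℕ} (f : Fin k → H) (R : ℕ) : Submodule ℂ H :=
  Submodule.span ℂ (Set.range (fun q : Fin k × (Finset.Icc (-(R : ℤ)) R) =>
    (U ^ (q.2 : ℤ)) (f q.1)))

lemma win_mono {k : ℕ} (f : Fin k → H) {R R' : ℕ} (h : R ≤ R') : win U f R ≤ win U f R' := by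
  unfold win
  rw [Submodule.span_le]
  rintro _ ⟨⟨i, n, hn⟩, rfl⟩
  apply Submodule.subset_span
  have hn' := Finset.mem_Icc.1 hn
  exact ⟨⟨i, n, Finset.mem_Icc.2 ⟨by omega, by omega⟩⟩, rfl⟩

lemma mem_win {k : ℕ} (f : Fin k → H) (x : H)
    (hx : x ∈ Submodule.span ℂ (Set.range (fun q : Fin k × ℤ => (U ^ q.2) (f q.1)))) :
    ∃ R, x ∈ win U f R := by
  induction hx using Submodule.span_induction with
  | mem x hx =>
    obtain ⟨⟨i, n⟩, rfl⟩ := hx
    refine ⟨n.natAbs, Submodule.subset_span ⟨⟨i, n, Finset.mem_Icc.2 ⟨by omega, by omega⟩⟩, rfl⟩⟩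
  | zero => exact ⟨0, Submodule.zero_mem _⟩
  | add x y _ _ hx hy =>
    obtain ⟨R, hR⟩ := hx
    obtain ⟨R', hR'⟩ := hy
    exact ⟨max R R', Submodule.add_mem _ (win_mono U f (le_max_left _ _) hR)
      (win_mono U f (le_max_right _ _) hR')⟩
  | smul a x _ hx =>
    obtain ⟨R, hR⟩ := hx
    exact ⟨R, Submodule.smul_mem _ _ hR⟩

lemma win_shift {k : ℕ} (f : Fin k → H) {R N : ℕ} {x : H} (hx : x ∈ win U f R) {n : ℤ}
    (hn : n ∈ Finset.Icc (-(N : ℤ)) N) : (U ^ n) x ∈ win U f (R + N) := by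
  unfold win at hx
  rw [Finset.mem_Icc] at hn
  induction hx using Submodule.span_induction with
  | mem x hx =>
    obtain ⟨⟨i, m, hm⟩, rfl⟩ := hx
    rw [Finset.mem_Icc] at hm
    refine Submodule.subset_span ⟨⟨i, n + m, Finset.mem_Icc.2 ⟨?_, ?_⟩⟩, ?_⟩
    · push_cast
      omega
    · push_cast
      omega
    · exact zpow_add_apply U n m _
  | zero =>
    rw [map_zero]
    exact Submodule.zero_mem _
  | add x y _ _ hx hy =>
    rw [map_add]
    exact Submodule.add_mem _ hx hy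
  | smul a x _ hx =>
    rw [map_smul]
    exact Submodule.smul_mem _ _ hx

lemma finrank_win {k : ℕ} (f : Fin k → H) (R : ℕ) :
    Module.finrank ℂ (win U f R) ≤ k * (2 * R + 1) := by
  have h1 := finrank_range_le_card (R := ℂ) (fun q : Fin k × (Finset.Icc (-(R : ℤ)) R) =>
    (U ^ (q.2 : ℤ)) (f q.1))
  have h2 : Fintype.card (Fin k × (Finset.Icc (-(R : ℤ)) R)) = k * (2 * R + 1) := by
    rw [Fintype.card_prod, Fintype.card_fin, Fintype.card_coe, Int.card_Icc]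
    congr 1
    omega
  rw [h2] at h1
  exact h1

/-- Spectral multiplicity bound: if the orbits of `k` vectors span, then an orbit Bessel family
with `D` generators of norm at least `r` has `D r² ≤ B k`. -/
theorem mult_bound {k D : ℕ} (f : Fin k → H) (v : Fin D → H) {B r : ℝ} (hB : 0 ≤ B)
    (hr : 0 ≤ r) (hbes : Bessel B (fun q : Fin D × ℤ => (U ^ q.2) (v q.1)))
    (hcl : ∀ j, v j ∈ (Submodule.span ℂ (Set.range (fun q : Fin k × ℤ =>
      (U ^ q.2) (f q.1)))).topologicalClosure) (hv : ∀ j, r ≤ ‖v j‖) :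
    D * r ^ 2 ≤ B * k := by
  by_contra hcon
  push Not at hcon
  -- choose `δ`
  have hD : 0 < D * r ^ 2 := lt_of_le_of_lt (by positivity) hcon
  obtain ⟨δ, hδ0, hδr, hδ⟩ : ∃ δ : ℝ, 0 < δ ∧ 2 * δ ≤ r ∧ B * k < D * (r - 2 * δ) ^ 2 := by
    have hr0 : 0 < r := by
      rcases hr.eq_or_lt with h | h
      · rw [← h] at hD
        simp at hD
      · exact h
    have hcont : Filter.Tendsto (fun δ : ℝ => (D : ℝ) * (r - 2 * δ) ^ 2) (nhds 0)
        (nhds (D * (r - 2 * 0) ^ 2)) := by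
      apply Continuous.tendsto
      fun_prop
    rw [mul_zero, sub_zero] at hcont
    have h1 := hcont.eventually (lt_mem_nhds hcon)
    have h2 : ∀ᶠ δ : ℝ in nhds 0, δ < r / 2 := gt_mem_nhds (by positivity)
    have h3 := (h1.and h2).filter_mono (nhdsWithin_le_nhds (s := Set.Ioi 0))
    have h4 : ∀ᶠ δ : ℝ in nhdsWithin 0 (Set.Ioi 0), 0 < δ := self_mem_nhdsWithin
    obtain ⟨δ, hd1, hd2⟩ := (h3.and h4).exists
    exact ⟨δ, hd2, by linarith [hd1.2], hd1.1⟩
  -- approximations in windows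
  have happ : ∀ j, ∃ R, ∃ u ∈ win U f R, ‖v j - u‖ ≤ δ := by
    intro j
    have h1 := hcl j
    rw [← SetLike.mem_coe, Submodule.topologicalClosure_coe, Metric.mem_closure_iff] at h1
    obtain ⟨u, hu, hd⟩ := h1 δ hδ0
    obtain ⟨R, hR⟩ := mem_win U f u hu
    exact ⟨R, u, hR, by rw [← dist_eq_norm]; exact hd.le⟩
  choose R0 u hu hvu using happ
  set R : ℕ := Finset.univ.sup R0 with hR
  have hu' : ∀ j, u j ∈ win U f R := fun j =>
    win_mono U f (Finset.le_sup (Finset.mem_univ j)) (hu j)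
  -- choose `N`
  set gap : ℝ := D * (r - 2 * δ) ^ 2 - B * k with hgap
  have hgap0 : 0 < gap := by linarith
  obtain ⟨N, hN⟩ := exists_nat_gt (2 * R * (B * k) / gap)
  rw [div_lt_iff₀ hgap0] at hN
  set W := win U f (R + N) with hW
  have hfd : FiniteDimensional ℂ W := by
    rw [hW]
    unfold win
    exact FiniteDimensional.span_of_finite ℂ (Set.finite_range _)
  set e := stdOrthonormalBasis ℂ W with he
  set S : Finset (Fin D × ℤ) := Finset.univ ×ˢ Finset.Icc (-(N : ℤ)) N with hS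
  have hlow : ∀ q ∈ S, (r - 2 * δ) ^ 2 ≤ ∑ l, ‖⟪(U ^ q.2) (v q.1), (e l : H)⟫_ℂ‖ ^ 2 := by
    intro q hq
    have hq2 : q.2 ∈ Finset.Icc (-(N : ℤ)) N := (Finset.mem_product.1 hq).2
    set x : H := (U ^ q.2) (v q.1) with hx
    set w : H := (U ^ q.2) (u q.1) with hw
    have hwW : w ∈ W := win_shift U f (hu' q.1) hq2
    have hxw : ‖x - w‖ ≤ δ := by
      rw [hx, hw, ← map_sub, LinearIsometryEquiv.norm_map]
      exact hvu q.1
    have hxr : r ≤ ‖x‖ := by
      rw [hx, LinearIsometryEquiv.norm_map]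
      exact hv q.1
    have hP : r - 2 * δ ≤ ‖W.orthogonalProjectionOnto x‖ := by
      have h1 : W.orthogonalProjectionOnto w = ⟨w, hwW⟩ :=
        Submodule.orthogonalProjectionOnto_mem_subspace_eq_self (⟨w, hwW⟩ : W)
      have h2 : ‖W.orthogonalProjectionOnto w‖ = ‖w‖ := by
        rw [h1]
        rfl
      have h3 : ‖W.orthogonalProjectionOnto w‖ ≤ ‖W.orthogonalProjectionOnto x‖
          + ‖W.orthogonalProjectionOnto (w - x)‖ := by
        have : W.orthogonalProjectionOnto w = W.orthogonalProjectionOnto x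
          + W.orthogonalProjectionOnto (w - x) := by
          rw [← map_add]
          congr 1
          abel
        rw [this]
        exact norm_add_le _ _
      have h4 : ‖W.orthogonalProjectionOnto (w - x)‖ ≤ ‖w - x‖ :=
        Submodule.norm_orthogonalProjectionOnto_apply_le W (w - x)
      have h5 : ‖w - x‖ ≤ δ := by
        rw [norm_sub_rev]
        exact hxw
      have h6 : ‖x‖ ≤ ‖w‖ + ‖x - w‖ := by
        have : x = w + (x - w) := by abel
        calc ‖x‖ = ‖w + (x - w)‖ := by rw [← this]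
          _ ≤ _ := norm_add_le _ _
      linarith
    have hsum : ∑ l, ‖⟪x, (e l : H)⟫_ℂ‖ ^ 2 = ‖W.orthogonalProjectionOnto x‖ ^ 2 := by
      have h1 := e.sum_sq_norm_inner_right (W.orthogonalProjectionOnto x)
      rw [← h1]
      apply Finset.sum_congr rfl
      intro l _
      rw [Submodule.inner_orthogonalProjectionOnto_eq_of_mem_left, norm_inner_symm]
    rw [hsum]
    apply pow_le_pow_left₀ (by linarith) hP
  have hup : ∑ q ∈ S, ∑ l, ‖⟪(U ^ q.2) (v q.1), (e l : H)⟫_ℂ‖ ^ 2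
      ≤ B * (k * (2 * ((R : ℝ) + N) + 1)) := by
    rw [Finset.sum_comm]
    calc ∑ l, ∑ q ∈ S, ‖⟪(U ^ q.2) (v q.1), (e l : H)⟫_ℂ‖ ^ 2
        ≤ ∑ l : Fin (Module.finrank ℂ W), B * 1 := by
          apply Finset.sum_le_sum
          intro l _
          have h1 := hbes.dual hB S (e l : H)
          have h2 : ‖(e l : H)‖ = 1 :=
            (e.orthonormal.comp_linearIsometry W.subtypeₗᵢ).1 l
          rw [h2] at h1
          simpa using h1
      _ = B * (Module.finrank ℂ W : ℝ) := by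
          rw [Finset.sum_const, Finset.card_univ, Fintype.card_fin, nsmul_eq_mul]
          ring
      _ ≤ B * (k * (2 * ((R : ℝ) + N) + 1)) := by
          apply mul_le_mul_of_nonneg_left _ hB
          have := finrank_win U f (R + N)
          have h2 : ((Module.finrank ℂ (win U f (R + N)) : ℕ) : ℝ)
              ≤ ((k * (2 * (R + N) + 1) : ℕ) : ℝ) := by exact_mod_cast this
          push_cast at h2
          exact h2
  have hlow' : (D : ℝ) * (2 * N + 1) * (r - 2 * δ) ^ 2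
      ≤ ∑ q ∈ S, ∑ l, ‖⟪(U ^ q.2) (v q.1), (e l : H)⟫_ℂ‖ ^ 2 := by
    calc (D : ℝ) * (2 * N + 1) * (r - 2 * δ) ^ 2 = ∑ q ∈ S, (r - 2 * δ) ^ 2 := by
          rw [Finset.sum_const, nsmul_eq_mul, hS, Finset.card_product, Finset.card_univ,
            Fintype.card_fin, Int.card_Icc]
          have : (((N : ℤ) + 1 - -(N : ℤ)).toNat : ℝ) = 2 * N + 1 := by
            have h1 : ((N : ℤ) + 1 - -(N : ℤ)).toNat = 2 * N + 1 := by omega
            rw [h1]
            push_cast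
            ring
          push_cast
          rw [this]
      _ ≤ _ := Finset.sum_le_sum hlow
  have hfin := hlow'.trans hup
  have hBk : 0 ≤ B * k := by positivity
  have hN0 : (0 : ℝ) ≤ N := by positivity
  have hR0 : (0 : ℝ) ≤ R := by positivity
  have h7 : (2 * N + 1) * gap ≤ 2 * R * (B * k) := by
    rw [hgap]
    nlinarith
  nlinarith

end mult

end Vale.P130
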